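import Vale.Agent.P246.R2.H429.Defs4
import Vale.Agent.P246.T.YP.Dec
import Vale.Agent.P246.T.YPc
import Vale.Agent.P246.T.CC
import Mathlib.Analysis.Normed.Module.Connected

/-! # P246, ROW TW3: simple connectivity of the covering after attaching two-cells with constant
attaching maps -/

namespace Vale.Agent.P246.H712

open Vale.Agent.P246 Vale.Agent.P246.T Vale.Agent.P246.T.YP Vale.Agent.P246.H429 Topology Metric Set

/-- two boundary points of the square are joined by a path in the boundary -/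
theorem exists_bdry_path {x y : Dk 2} (hx : ‖(x : Fin 2 → ℝ)‖ = 1) (hy : ‖(y : Fin 2 → ℝ)‖ = 1) :
    ∃ β : Path x y, ∀ t, ‖(β t : Fin 2 → ℝ)‖ = 1 := by
  have hr : 1 < Module.rank ℝ (Fin 2 → ℝ) := by simp
  have h := isPathConnected_sphere hr (0 : Fin 2 → ℝ) zero_le_one
  obtain ⟨γ, hγ⟩ := h.joinedIn (x : Fin 2 → ℝ) (mem_sphere_zero_iff_norm.2 hx)
    (y : Fin 2 → ℝ) (mem_sphere_zero_iff_norm.2 hy)
  refine ⟨⟨⟨fun t => ⟨γ t, sphere_subset_closedBall (hγ t)⟩, γ.continuous.subtype_mk _⟩,
    Subtype.ext γ.source, Subtype.ext γ.target⟩, fun t => ?_⟩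
  exact mem_sphere_zero_iff_norm.1 (hγ t)

section

variable {W : Type} [TopologicalSpace W] [T2Space W] {A B : Set W} {Φ : C(Dk 2, W)}

/-- paths in `B` with end points in `A` can be deformed into `A` -/
theorem push_path (hA : IsClosed A) (hB : Attach 2 A B Φ) {u v : B} (γ : Path u v) (hu : u.1 ∈ A)
    (hv : v.1 ∈ A) : ∃ α : Path u v, (∀ t, (α t).1 ∈ A) ∧ γ.Homotopic α := by
  have h := CC.main1 W 2 A B Φ hA hB
  have := dec h A le_rfl (fun x hx => h.bdry () x hx)
    (fun u v π => ∃ α : Path u v, (∀ t, (α t).1 ∈ A) ∧ π = Path.Homotopic.Quotient.mk α)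
    ?_ ?_ ?_ u v γ hu hv
  · obtain ⟨α, hα, he⟩ := this
    exact ⟨α, hα, Path.Homotopic.Quotient.eq.1 he⟩
  · rintro u v w _ _ - - - ⟨α, hα, rfl⟩ ⟨β, hβ, rfl⟩
    refine ⟨α.trans β, fun t => ?_, (Path.Homotopic.Quotient.mk_trans α β).symm⟩
    rw [Path.trans_apply]
    split_ifs
    · exact hα _
    · exact hβ _
  · exact fun u v γ _ _ h => ⟨γ, h, rfl⟩
  · intro x y β hx hy
    obtain ⟨β', hβ'⟩ := exists_bdry_path hx hy
    have : ContractibleSpace (Dk 2) :=
      (convex_closedBall (0 : Fin 2 → ℝ) 1).contractibleSpace ⟨0, by simp⟩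
    refine ⟨β'.map (phB h).continuous, fun t => h.bdry () _ (hβ' t), ?_⟩
    exact Path.Homotopic.Quotient.eq.2
      ((SimplyConnectedSpace.paths_homotopic β β').map (phB h))

end

section

variable {G W F : Type} [Group G] [TopologicalSpace W] [T2Space W] [TopologicalSpace F]
  [MulAction G F] [ContinuousConstSMul G F] {q : C(F, W)}

/-- the restriction of the covering -/
def qr (q : C(F, W)) (B : Set W) : C((q ⁻¹' B : Set F), B) :=
  ⟨B.restrictPreimage q, q.continuous.restrictPreimage⟩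

omit [T2Space W] [ContinuousConstSMul G F] in
theorem qr_cov (hq : IsQuotientCoveringMap q G) (B : Set W) : IsCoveringMap (qr q B) := by
  have h : IsCoveringMapOn q B := (isCoveringMap_iff_isCoveringMapOn_univ.1
    hq.isCoveringMap).mono (subset_univ _)
  exact h.isCoveringMap_restrictPreimage

/-- one cell (any attaching map) -/
theorem sc_step (hq : IsQuotientCoveringMap q G) {A B : Set W} {Φ : C(Dk 2, W)}
    (hA : IsClosed A) (hB : Attach 2 A B Φ)
    (hs : SimplyConnectedSpace (q ⁻¹' A : Set F)) : SimplyConnectedSpace (q ⁻¹' B : Set F) := by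
  have hAB : A ⊆ B := by rw [hB.eq]; exact subset_union_left
  have hcov := qr_cov hq B
  -- the inclusion
  let inc : C((q ⁻¹' A : Set F), (q ⁻¹' B : Set F)) :=
    ⟨fun y => ⟨y.1, hAB y.2⟩, continuous_subtype_val.subtype_mk _⟩
  obtain ⟨e⟩ : Nonempty (q ⁻¹' A : Set F) := inferInstance
  -- loops at the base point
  have hloop : ∀ γ : Path (inc e) (inc e), γ.Homotopic (Path.refl _) := by
    intro γ
    obtain ⟨α, hα, hγα⟩ := push_path hA hB (γ.map (qr q B).continuous) e.2 e.2
    have hδ : (γ.map (qr q B).continuous : C(I, B)).HomotopicRel α {0, 1} := hγα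
    have e0 : (γ.map (qr q B).continuous : C(I, B)) 0 = qr q B (inc e) :=
      (γ.map (qr q B).continuous).source
    have e1 : (α : C(I, B)) 0 = qr q B (inc e) := α.source
    have h1 := hcov.liftPath_apply_one_eq_of_homotopicRel hδ (inc e) e0 e1
    have h2 : (γ : C(I, (q ⁻¹' B : Set F))) =
        hcov.liftPath (γ.map (qr q B).continuous : C(I, B)) (inc e) e0 :=
      (hcov.eq_liftPath_iff' e0).2 ⟨rfl, γ.source⟩
    rw [← h2] at h1
    have h3 : hcov.liftPath (α : C(I, B)) (inc e) e1 1 = inc e := h1.symm.trans γ.target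
    have hl : ∀ t, qr q B (hcov.liftPath (α : C(I, B)) (inc e) e1 t) = α t := fun t =>
      congrFun (hcov.liftPath_lifts (α : C(I, B)) (inc e) e1) t
    let Γ : Path (inc e) (inc e) :=
      ⟨hcov.liftPath (α : C(I, B)) (inc e) e1, hcov.liftPath_zero _ _ e1, h3⟩
    have hΓ : ∀ t, q (Γ t).1 ∈ A := fun t => by
      have h4 : q (Γ t).1 = (α t).1 := congrArg Subtype.val (hl t)
      rw [h4]
      exact hα t
    let Γ' : Path e e := ⟨⟨fun t => ⟨(Γ t).1, hΓ t⟩,
      (continuous_subtype_val.comp Γ.continuous).subtype_mk _⟩,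
      Subtype.ext (by
        have h5 := congrArg Subtype.val Γ.source
        exact h5), Subtype.ext (by
        have h5 := congrArg Subtype.val Γ.target
        exact h5)⟩
    have h5 : Γ.Homotopic (Path.refl (inc e)) := by
      have h6 : Γ'.Homotopic (Path.refl e) := SimplyConnectedSpace.paths_homotopic _ _
      exact hom_of_eq (h6.map inc) (fun t => rfl) (fun t => rfl)
    refine Path.Homotopic.trans ?_ h5
    have h7 : (Path.Homotopic.Quotient.mk γ).map (qr q B) =
        (Path.Homotopic.Quotient.mk Γ).map (qr q B) := by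
      refine Path.Homotopic.Quotient.eq.2 ?_
      exact hom_of_eq hγα (fun t => rfl) (fun t => hl t)
    exact Path.Homotopic.Quotient.eq.1 (hcov.injective_path_homotopic_map _ _ h7)
  -- path connectedness
  have hjA : ∀ y : (q ⁻¹' B : Set F), q y.1 ∈ A → Joined (inc e) y := by
    intro y hy
    obtain ⟨δ⟩ := PathConnectedSpace.joined e (⟨y.1, hy⟩ : (q ⁻¹' A : Set F))
    exact ⟨δ.map inc.continuous⟩
  have hj : ∀ y : (q ⁻¹' B : Set F), Joined (inc e) y := by
    intro y
    by_cases hy : q y.1 ∈ A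
    · exact hjA y hy
    · have hy2 : q y.1 ∈ range Φ := by
        have h1 : q y.1 ∈ A ∪ range Φ := (Set.ext_iff.1 hB.eq _).1 y.2
        exact h1.resolve_left hy
      obtain ⟨z, hz⟩ := hy2
      have : ContractibleSpace (Dk 2) :=
        (convex_closedBall (0 : Fin 2 → ℝ) 1).contractibleSpace ⟨0, by simp⟩
      let z1 : Dk 2 := clp 2 ![1, 1]
      have hz1 : ‖(z1 : Fin 2 → ℝ)‖ = 1 := by
        have := norm_sideR 1
        rwa [sideR.target] at this
      obtain ⟨β⟩ := PathConnectedSpace.joined z z1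
      have hmB : ∀ w, Φ w ∈ B := fun w => by rw [hB.eq]; exact Or.inr ⟨w, rfl⟩
      let δ : C(I, B) := ⟨fun t => ⟨Φ (β t), hmB _⟩,
        (Φ.continuous.comp β.continuous).subtype_mk _⟩
      have e0 : δ 0 = qr q B y := Subtype.ext (by
        change Φ (β 0) = q y.1
        rw [β.source, hz])
      have h1 : q (hcov.liftPath δ y e0 1).1 ∈ A := by
        have h2 := congrArg Subtype.val (congrFun (hcov.liftPath_lifts δ y e0) 1)
        have h3 : q (hcov.liftPath δ y e0 1).1 = Φ (β 1) := h2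
        rw [h3, β.target]
        exact hB.bdry _ hz1
      have h4 : Joined y (hcov.liftPath δ y e0 1) :=
        ⟨⟨hcov.liftPath δ y e0, hcov.liftPath_zero δ y e0, rfl⟩⟩
      exact (hjA _ h1).trans h4.symm
  have hPC : PathConnectedSpace (q ⁻¹' B : Set F) :=
    ⟨⟨inc e⟩, fun y z => (hj y).symm.trans (hj z)⟩
  rw [simply_connected_iff_loops_nullhomotopic]
  refine ⟨hPC, fun y γ => ?_⟩
  obtain ⟨δ⟩ := hj y
  have h := hloop ((δ.trans γ).trans δ.symm)
  have h0 : Path.Homotopic.Quotient.mk ((δ.trans γ).trans δ.symm) =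
      Path.Homotopic.Quotient.mk (Path.refl _) := Path.Homotopic.Quotient.eq.2 h
  apply Path.Homotopic.Quotient.eq.1
  have h1 : Path.Homotopic.Quotient.mk γ = ((Path.Homotopic.Quotient.mk δ).symm.trans
      (((Path.Homotopic.Quotient.mk δ).trans (Path.Homotopic.Quotient.mk γ)).trans
        (Path.Homotopic.Quotient.mk δ).symm)).trans (Path.Homotopic.Quotient.mk δ) := by
    simp
    rw [← Path.Homotopic.Quotient.trans_assoc]
    simp
  rw [h1]
  have h2 : ((Path.Homotopic.Quotient.mk δ).trans (Path.Homotopic.Quotient.mk γ)).trans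
        (Path.Homotopic.Quotient.mk δ).symm = Path.Homotopic.Quotient.refl _ := h0
  rw [h2]
  simp

theorem sc_sph (hq : IsQuotientCoveringMap q G) {C B : Set W} {t : ℕ} (hC : IsClosed C)
    (h : Sph C B t) (hs : SimplyConnectedSpace (q ⁻¹' C : Set F)) :
    IsClosed B ∧ SimplyConnectedSpace (q ⁻¹' B : Set F) := by
  induction h with
  | base => exact ⟨hC, hs⟩
  | cell Φ a _ _ _ hA ih =>
    refine ⟨?_, sc_step hq ih.1 hA ih.2⟩
    rw [hA.eq]
    exact ih.1.union (isCompact_range Φ.continuous).isClosed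

end

/-- ROW TW3. -/
theorem specSCW : SpecSCW := by
  intro G W F _ _ _ _ _ _ q hq C t hC h hs
  have h1 := (sc_sph hq hC h hs).2
  have e : F ≃ₜ (q ⁻¹' (univ : Set W) : Set F) := (Homeomorph.Set.univ F).symm
  exact e.toHomotopyEquiv.simplyConnectedSpace

end Vale.Agent.P246.H712
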