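import Vale.Agent.P246.T.A1
import Vale.Agent.P246.R2.H429.Defs2

/-! # P246-T: block A1 for one complex, with the Euler characteristic -/

namespace Vale.Agent.P246.H712

open Vale.Agent.P246 Vale.Agent.P246.T Vale.Agent.P246.H429 Topology Metric Set

theorem a1N (G : Type) [Group G] (e : ℤ) (hD : ∀ C : Cx (ZG G), IsD2Complex C → ∀ n : ℤ,
      HasEuler C n → e ≤ n → ∃ P : FinPresentation G, C.Equiv (foxComplex P))
    (X E : Type) [TopologicalSpace X] [TopologicalSpace E]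
    [SimplyConnectedSpace E] [MulAction G E] [ContinuousConstSMul G E] (p : C(E, X))
    (hp : IsQuotientCoveringMap p G)
    (hhigh : ∀ i, 2 ≤ i → ∀ c : Ch (i + 1) E, bd i c = 0 → ∃ b : Ch (i + 2) E, bd (i + 1) b = c)
    (h3 : H3G G E) (P : ∀ n, Submodule (ZG G) (SC G n E))
    (hP : IsFinModel (fun n => SC G n E) (fun n => SC.d G n E) (fun _ => ⊤) P)
    (c : ℕ → ℕ) (N : ℕ) (hc : ∀ k, Nonempty (P k ≃ₗ[ZG G] (Fin (c k) → ZG G)))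
    (hN : ∀ i, N ≤ i → c i = 0) (he : e ≤ ∑ i ∈ Finset.range N, (-1 : ℤ) ^ i * c i) :
    ∃ (Pr : FinPresentation G) (ψ0 : ZG G →ₗ[ZG G] SC G 0 E)
      (ψ1 : (Fin Pr.gens → ZG G) →ₗ[ZG G] SC G 1 E)
      (ψ2 : (Fin Pr.rels → ZG G) →ₗ[ZG G] SC G 2 E), FoxQI Pr univ ψ0 ψ1 ψ2 := by
  have hdat := A1x.data (fun c => A1h.aug_iff c) (fun c h => A1h.h_one c h)
    (fun n => A1f.free hp n) hhigh h3 hP
  obtain ⟨Pr, ⟨e⟩⟩ := hD _ hdat.isD2 _ ⟨c, N, hc, hN, rfl⟩ he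
  obtain ⟨ψ0, ψ1, ψ2, h⟩ := A1x.qi hP.toIsModel Pr e
  exact ⟨Pr, ψ0, ψ1, ψ2, h⟩

end Vale.Agent.P246.H712
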