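import Vale.Agent.P246.T.CWB

/-! # P246-T: finite CW complexes are built by attaching cells, with the number of cells -/

namespace Vale.Agent.P246.H712

open Vale.Agent.P246 Vale.Agent.P246.T Vale.Agent.P246.T.CWB Topology Metric Set

/-- sets which are built from `∅` by attaching finitely many cells, with the number of cells -/
inductive BuiltN {X : Type} [TopologicalSpace X] : Set X → (ℕ → ℕ) → Prop
  | base : BuiltN ∅ 0
  | cell {A B : Set X} {c : ℕ → ℕ} (n : ℕ) (Φ : C(Dk n, X)) : BuiltN A c → Attach n A B Φ →
      BuiltN B (Function.update c n (c n + 1))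

section

variable {X : Type} [TopologicalSpace X] [CWComplex (univ : Set X)]

/-- the number of cells of dimension `n` of `T` -/
noncomputable def cnt (T : Finset (Cells X)) (n : ℕ) : ℕ := by
  classical exact (T.filter fun c => c.1 = n).card

theorem cnt_erase [DecidableEq (Cells X)] (T : Finset (Cells X)) {c : Cells X} (hc : c ∈ T) :
    cnt T = Function.update (cnt (T.erase c)) c.1 (cnt (T.erase c) c.1 + 1) := by
  classical
  funext n
  unfold cnt
  by_cases h : n = c.1
  · subst h
    rw [Function.update_self]
    have e : (T.filter fun x => x.1 = c.1) = insert c ((T.erase c).filter fun x => x.1 = c.1) := by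
      ext x
      simp only [Finset.mem_filter, Finset.mem_insert, Finset.mem_erase]
      constructor
      · rintro ⟨h1, h2⟩
        by_cases hx : x = c
        · exact Or.inl hx
        · exact Or.inr ⟨⟨hx, h1⟩, h2⟩
      · rintro (rfl | ⟨⟨h1, h2⟩, h3⟩)
        · exact ⟨hc, rfl⟩
        · exact ⟨h2, h3⟩
    rw [e, Finset.card_insert_of_notMem]
    simp
  · rw [Function.update_of_ne h]
    congr 1
    ext x
    simp only [Finset.mem_filter, Finset.mem_erase]
    constructor
    · rintro ⟨h1, h2⟩
      refine ⟨⟨?_, h1⟩, h2⟩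
      rintro rfl
      exact h h2.symm
    · rintro ⟨⟨h1, h2⟩, h3⟩
      exact ⟨h2, h3⟩

theorem builtN : ∀ (k : ℕ) (T : Finset (Cells X)), T.card = k →
    (∀ c ∈ T, ∀ c' : Cells X, c'.1 < c.1 → c' ∈ T) → BuiltN (U T) (cnt T) := by
  classical
  intro k
  induction k with
  | zero =>
    intro T hT _
    rw [Finset.card_eq_zero] at hT
    subst hT
    have : U (∅ : Finset (Cells X)) = ∅ := by simp [U]
    rw [this]
    have h0 : cnt (∅ : Finset (Cells X)) = 0 := by
      funext n
      simp [cnt]
    rw [h0]
    exact BuiltN.base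
  | succ k ih =>
    intro T hT hdown
    have hne : T.Nonempty := by
      rw [← Finset.card_pos]; omega
    obtain ⟨c, hc, hmax⟩ := Finset.exists_max_image T (fun c => c.1) hne
    have h1 : ∀ c' ∈ T.erase c, ∀ c'' : Cells X, c''.1 < c'.1 → c'' ∈ T.erase c := by
      intro c' hc' c'' h
      have h2 := hmax c' (Finset.mem_of_mem_erase hc')
      refine Finset.mem_erase.2 ⟨?_, hdown c' (Finset.mem_of_mem_erase hc') c'' h⟩
      rintro rfl
      omega
    have h2 := ih (T.erase c) (by rw [Finset.card_erase_of_mem hc, hT]; rfl) h1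
    rw [cnt_erase T hc]
    refine BuiltN.cell c.1 (chi c) h2 ⟨?_, ?_, ?_, ?_⟩
    · intro x hx
      obtain ⟨c', hc', h'⟩ := frontier c x hx
      refine mem_iUnion₂.2 ⟨c', Finset.mem_erase.2 ⟨?_, hdown c hc c' hc'⟩, h'⟩
      rintro rfl
      exact lt_irrefl _ hc'
    · intro x hx hcon
      obtain ⟨c', hc', h'⟩ := mem_iUnion₂.1 hcon
      obtain ⟨c'', h3, h4⟩ := closed_open c'.1 c' rfl _ h'
      have h5 : c = c'' := disj (c := c) ⟨x, mem_ball_zero_iff.2 hx, rfl⟩ h3
      have h6 := hmax c' (Finset.mem_of_mem_erase hc')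
      rcases h4 with rfl | h4
      · exact (Finset.mem_erase.1 hc').1 h5.symm
      · rw [← h5] at h4
        omega
    · intro x y hx hy hxy
      have h3 := (RelCWComplex.map c.1 c.2).injOn
        (by rw [RelCWComplex.source_eq]; exact mem_ball_zero_iff.2 hx)
        (by rw [RelCWComplex.source_eq]; exact mem_ball_zero_iff.2 hy) hxy
      exact Subtype.ext h3
    · rw [range_chi]
      ext y
      simp only [U, mem_iUnion, mem_union, Finset.mem_erase, exists_prop]
      constructor
      · rintro ⟨c', hc', hy⟩
        by_cases e : c' = c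
        · rw [← e]; exact Or.inr hy
        · exact Or.inl ⟨c', ⟨e, hc'⟩, hy⟩
      · rintro (⟨c', hc', hy⟩ | hy)
        · exact ⟨c', hc'.2, hy⟩
        · exact ⟨c, hc, hy⟩

end

/-- the number of cells of dimension `n` -/
noncomputable def ncell (X : Type) [TopologicalSpace X] [T2Space X]
    [CWComplex (univ : Set X)] (n : ℕ) : ℕ := Nat.card (RelCWComplex.cell (univ : Set X) n)

theorem builtN_univ (X : Type) [TopologicalSpace X] [T2Space X]
    [CWComplex (univ : Set X)] [CWComplex.Finite (univ : Set X)] :
    BuiltN (univ : Set X) (ncell X) := by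
  classical
  have hfin : Finite (Cells X) := RelCWComplex.finite_cells_of_finite
  have : Fintype (Cells X) := Fintype.ofFinite _
  have h := builtN (X := X) _ Finset.univ rfl fun _ _ _ _ => Finset.mem_univ _
  have e : U (Finset.univ : Finset (Cells X)) = univ := by
    ext y
    obtain ⟨c, hc⟩ := exists_cell y
    exact ⟨fun _ => trivial, fun _ => mem_iUnion₂.2 ⟨c, Finset.mem_univ _, hc⟩⟩
  have e2 : cnt (Finset.univ : Finset (Cells X)) = ncell X := by
    funext n
    unfold cnt ncell
    rw [← Nat.card_congr (Equiv.sigmaSubtype (β := fun n => RelCWComplex.cell (univ : Set X) n) n)]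
    rw [Nat.card_eq_fintype_card, Fintype.card_subtype]
  rwa [e, e2] at h

theorem ncell_bdd (X : Type) [TopologicalSpace X] [T2Space X]
    [CWComplex (univ : Set X)] [CWComplex.Finite (univ : Set X)] :
    ∃ N, ∀ n, N ≤ n → ncell X n = 0 := by
  classical
  have hfin : Finite (Cells X) := RelCWComplex.finite_cells_of_finite
  have : Fintype (Cells X) := Fintype.ofFinite _
  obtain ⟨N, hN⟩ := (Finset.univ.image fun c : Cells X => c.1).bddAbove
  refine ⟨N + 1, fun n hn => ?_⟩
  unfold ncell
  have : IsEmpty (RelCWComplex.cell (univ : Set X) n) := by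
    constructor
    intro j
    have h := hN (Finset.mem_coe.2 (Finset.mem_image.2 ⟨(⟨n, j⟩ : Cells X), Finset.mem_univ _, rfl⟩))
    simp only at h
    omega
  exact Nat.card_of_isEmpty

end Vale.Agent.P246.H712
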