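import Vale.Agent.P246.T.MX
import Vale.Agent.P246.R2.H712.CWN

/-! # P246-T: finite models of the coverings, with the number of generators -/

namespace Vale.Agent.P246.H712

open Vale.Agent.P246 Vale.Agent.P246.T Vale.Agent.P246.T.MX Topology Metric Set

section Alg

variable {R M : Type} [Ring R] [AddCommGroup M] [Module R M]

/-- one more generator -/
theorem rank_sup {P A : Submodule R M} (hPA : P ≤ A) {z : M} (hz : ∀ r : R, r • z ∈ A → r = 0)
    {c : ℕ} (e0 : Nonempty (P ≃ₗ[R] (Fin c → R))) :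
    Nonempty ((P ⊔ Submodule.span R {z} : Submodule R M) ≃ₗ[R] (Fin (c + 1) → R)) := by
  obtain ⟨e0⟩ := e0
  let f : (R × P) →ₗ[R] M := (LinearMap.toSpanSingleton R M z).coprod P.subtype
  have hf : Function.Injective f := by
    rw [injective_iff_map_eq_zero]
    rintro ⟨r, x⟩ h
    have h1 : r • z + (x : M) = 0 := h
    have hr : r = 0 := hz r (by
      rw [eq_neg_of_add_eq_zero_left h1]
      exact Submodule.neg_mem _ (hPA x.2))
    subst hr
    rw [zero_smul, zero_add] at h1
    exact Prod.ext rfl (Subtype.ext h1)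
  have hrange : LinearMap.range f = P ⊔ Submodule.span R {z} := by
    rw [LinearMap.range_coprod, Submodule.range_subtype, LinearMap.range_toSpanSingleton, sup_comm]
  have e := (LinearEquiv.ofInjective f hf).trans (LinearEquiv.ofEq _ _ hrange)
  exact ⟨e.symm.trans ((LinearEquiv.prodCongr (LinearEquiv.refl R R) e0).trans
    (Fin.consLinearEquiv R fun _ : Fin (c + 1) => R))⟩

end Alg

section

variable {G X E : Type} [Group G] [TopologicalSpace X] [T2Space X]
  [TopologicalSpace E] [MulAction G E] [ContinuousConstSMul G E] {p : C(E, X)}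

theorem cellN (hms : SpecMS) (hcl : SpecCL) (hf : SpecFund) (hp : IsQuotientCoveringMap p G)
    {A B : Set X} {n : ℕ} {Φ : C(Dk n, X)} (hA : IsClosed A) (h : Attach n A B Φ)
    {c : ℕ → ℕ} {P : ∀ k, Submodule (ZG G) (SC G k E)}
    (hP : IsFinModel (fun n => SC G n E) (fun n => SC.d G n E) (Step.SA hp A) P)
    (hc : ∀ k, Nonempty (P k ≃ₗ[ZG G] (Fin (c k) → ZG G))) :
    ∃ P' : ∀ k, Submodule (ZG G) (SC G k E),
      IsFinModel (fun n => SC G n E) (fun n => SC.d G n E) (Step.SA hp B) P' ∧
      ∀ k, Nonempty (P' k ≃ₗ[ZG G] (Fin (Function.update c n (c n + 1) k) → ZG G)) := by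
  obtain ⟨Ψ, hΨ⟩ := exists_lift hp Φ
  obtain ⟨ζ, hζ⟩ := hf.1 n
  -- the correction of the cell
  obtain ⟨z, hz, hz'⟩ : ∃ z : SC G n E, z.un - push Ψ n ζ ∈ Con (p ⁻¹' A) n ∧
      DRel (fun n => SC G n E) (fun n => SC.d G n E) P n z := by
    cases n with
    | zero =>
      refine ⟨SC.mk G (push Ψ 0 ζ), ?_, trivial⟩
      rw [SC.un_mk, sub_self]
      exact Submodule.zero_mem _
    | succ m =>
      have h1 : bd m (push Ψ (m + 1) ζ) ∈ Con (p ⁻¹' A) m := by
        rw [push_bd]
        refine push_mem (fun x hx => ?_) hζ.cyc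
        change p (Ψ x) ∈ A
        rw [hΨ]
        exact h.bdry x hx
      obtain ⟨y, hy, -, z', hz', he⟩ := hP.surj m (SC.mk G (bd m (push Ψ (m + 1) ζ))) h1 (by
        cases m with
        | zero => trivial
        | succ m => exact SC.un_inj (PR.bd_bd m _))
      refine ⟨SC.mk G (push Ψ (m + 1) ζ) - z', ?_, ?_⟩
      · rw [SC.un_sub, SC.un_mk, sub_sub_cancel_left]
        exact Submodule.neg_mem _ hz'
      · change SC.d G m E (SC.mk G (push Ψ (m + 1) ζ) - z') ∈ P m
        have e : SC.d G m E (SC.mk G (push Ψ (m + 1) ζ) - z') = y := by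
          rw [map_sub, sub_eq_iff_eq_add]
          exact he
        rw [e]
        exact hy
  obtain ⟨h1, h2⟩ := Step.step hms CC.main2 hcl hp Ψ hA h hΨ hζ hP.toIsModel z hz hz'
  refine ⟨_, { toIsModel := h1, free := fun k => ?_, fin := fun k => ?_, bdd := ?_ }, fun k => ?_⟩
  · by_cases hk : k = n
    · subst hk
      rw [Function.update_self]
      exact free_sup (hP.le k) h2 (hP.free k)
    · rw [Function.update_of_ne hk]
      exact hP.free k
  · by_cases hk : k = n
    · subst hk
      rw [Function.update_self]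
      exact finite_sup z (hP.fin k)
    · rw [Function.update_of_ne hk]
      exact hP.fin k
  · obtain ⟨N, hN⟩ := hP.bdd
    refine ⟨max N n, fun k hk => ?_⟩
    rw [Function.update_of_ne (by have := le_max_right N n; omega)]
    exact hN k (lt_of_le_of_lt (le_max_left N n) hk)
  · by_cases hk : k = n
    · subst hk
      rw [Function.update_self, Function.update_self]
      exact rank_sup (hP.le k) h2 (hc k)
    · rw [Function.update_of_ne hk, Function.update_of_ne hk]
      exact hc k

theorem built_model (hms : SpecMS) (hcl : SpecCL) (hf : SpecFund)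
    (hp : IsQuotientCoveringMap p G) {B : Set X} {c : ℕ → ℕ} (hB : BuiltN B c) :
    IsClosed B ∧ ∃ P : ∀ k, Submodule (ZG G) (SC G k E),
      IsFinModel (fun n => SC G n E) (fun n => SC.d G n E) (Step.SA hp B) P ∧
      ∀ k, Nonempty (P k ≃ₗ[ZG G] (Fin (c k) → ZG G)) := by
  induction hB with
  | base =>
    refine ⟨isClosed_empty, _, base hp, fun k => ?_⟩
    have h1 : Nonempty ((⊥ : Submodule (ZG G) (SC G k E)) ≃ₗ[ZG G] (Fin 0 → ZG G)) :=
      ⟨LinearEquiv.ofSubsingleton _ _⟩
    exact h1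
  | cell n Φ _ h ih =>
    obtain ⟨hA, P, hP, hc⟩ := ih
    refine ⟨?_, cellN hms hcl hf hp hA h hP hc⟩
    rw [h.eq]
    exact hA.union (isCompact_range Φ.continuous).isClosed

theorem modelN (hms : SpecMS) (hcl : SpecCL) (hf : SpecFund)
    (hp : IsQuotientCoveringMap p G) {c : ℕ → ℕ} (hX : BuiltN (univ : Set X) c) :
    ∃ P : ∀ k, Submodule (ZG G) (SC G k E),
      IsFinModel (fun n => SC G n E) (fun n => SC.d G n E) (fun _ => ⊤) P ∧
      ∀ k, Nonempty (P k ≃ₗ[ZG G] (Fin (c k) → ZG G)) := by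
  obtain ⟨-, P, hP, hc⟩ := built_model hms hcl hf hp hX
  refine ⟨P, ?_, hc⟩
  have e : (Step.SA hp univ : ∀ n, Submodule (ZG G) (SC G n E)) = fun _ => ⊤ := by
    funext n
    rw [eq_top_iff]
    intro x _
    rw [Step.mem_SA, preimage_univ]
    exact PR.Con_univ _
  rw [← e]
  exact hP

end

end Vale.Agent.P246.H712
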